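import Crest.Agent.R163.Q3.D.b4L.P0_0

set_option autoImplicit false
set_option maxRecDepth 100000
set_option linter.all false

namespace Crest.Agent.R163.b4L

theorem o0_14 : Ok par f14 Box3.unit C0 :=
  p0_14_0
theorem o0_13 : Ok par f13 Box3.unit C0 :=
  p0_13_0
theorem o0_12 : Ok par f12 Box3.unit C0 :=
  p0_12_0
theorem o0_11 : Ok par f11 Box3.unit C0 :=
  p0_11_0
theorem o0_10 : Ok par f10 Box3.unit C0 :=
  p0_10_0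
theorem o0_9 : Ok par f9 Box3.unit C0 :=
  p0_9_0
theorem o0_8 : Ok par f8 Box3.unit C0 :=
  p0_8_0
theorem o0_7 : Ok par f7 Box3.unit C0 :=
  p0_7_0
theorem o0_6 : Ok par f6 Box3.unit C0 :=
  p0_6_0
theorem o0_5 : Ok par f5 Box3.unit C0 :=
  p0_5_0
theorem o0_4 : Ok par f4 Box3.unit C0 :=
  p0_4_0
theorem o0_3 : Ok par f3 Box3.unit C0 :=
  p0_3_0
theorem o0_2 : Ok par f2 Box3.unit C0 :=
  p0_2_0
theorem o0_1 : Ok par f1 Box3.unit C0 :=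
  p0_1_0
theorem o0_0 : Ok par f0 Box3.unit C0 :=
  p0_0_0

theorem pt0 : PtAll par C0 :=
  PtAll.of_okD hw (OkD.cover [f0.dom,f1.dom,f2.dom,f3.dom,f4.dom,f5.dom,f6.dom,f7.dom,f8.dom,f9.dom,f10.dom,f11.dom,f12.dom,f13.dom,f14.dom]
    (.split 0 (.split 0 (.split 1 (.leaf 0) (.split 1 (.leaf 1) (.split 0 (.leaf 2) (.leaf 3)))) (.split 1 (.leaf 4) (.split 1 (.leaf 5) (.leaf 6)))) (.split 1 (.split 0 (.leaf 7) (.leaf 8)) (.split 0 (.split 1 (.leaf 9) (.leaf 10)) (.split 1 (.leaf 11) (.split 0 (.leaf 12) (.split 1 (.leaf 13) (.leaf 14)))))))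
    (by decide +kernel)
    (List.forall_mem_cons.2 ⟨OkD.of_ok o0_0, (List.forall_mem_cons.2 ⟨OkD.of_ok o0_1, (List.forall_mem_cons.2 ⟨OkD.of_ok o0_2, (List.forall_mem_cons.2 ⟨OkD.of_ok o0_3, (List.forall_mem_cons.2 ⟨OkD.of_ok o0_4, (List.forall_mem_cons.2 ⟨OkD.of_ok o0_5, (List.forall_mem_cons.2 ⟨OkD.of_ok o0_6, (List.forall_mem_cons.2 ⟨OkD.of_ok o0_7, (List.forall_mem_cons.2 ⟨OkD.of_ok o0_8, (List.forall_mem_cons.2 ⟨OkD.of_ok o0_9, (List.forall_mem_cons.2 ⟨OkD.of_ok o0_10, (List.forall_mem_cons.2 ⟨OkD.of_ok o0_11, (List.forall_mem_cons.2 ⟨OkD.of_ok o0_12, (List.forall_mem_cons.2 ⟨OkD.of_ok o0_13, (List.forall_mem_cons.2 ⟨OkD.of_ok o0_14, (fun _ h => nomatch h)⟩)⟩)⟩)⟩)⟩)⟩)⟩)⟩)⟩)⟩)⟩)⟩)⟩)⟩)⟩))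

end Crest.Agent.R163.b4L
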