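import Crest.Agent.R163.Q3.D.b4L.T0_0
import Crest.Agent.R163.Q3.D.b4L.M0

set_option autoImplicit false
set_option maxRecDepth 100000
set_option linter.all false

namespace Crest.Agent.R163.b4L

theorem Inf.cast {a b : Box} (h : Inf par a) (e : Box.beq a b = true) : Inf par b :=
  Box.eq_of_beq e ▸ h

theorem n6 : Inf par b6_0 :=
  Inf.empty (by decide +kernel)
theorem n6_0 : Inf par a6_0 :=
  Inf.steps hw _ b6_0 s6_0 c6_0 pt0.right.right.right.right.right.right n6
theorem n5 : Inf par b5_0 :=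
  Inf.empty (by decide +kernel)
theorem n5_0 : Inf par a5_0 :=
  Inf.steps hw _ b5_0 s5_0 c5_0 pt0.right.right.right.right.right.left n5
theorem n4 : Inf par b4_0 :=
  Inf.spX 1910 (Inf.cast n5_0 (by decide +kernel)) (Inf.cast n6_0 (by decide +kernel))
theorem n4_0 : Inf par a4_0 :=
  Inf.steps hw _ b4_0 s4_0 c4_0 pt0.right.right.right.right.left n4
theorem n3 : Inf par b3_0 :=
  Inf.empty (by decide +kernel)
theorem n3_0 : Inf par a3_0 :=
  Inf.steps hw _ b3_0 s3_0 c3_0 pt0.right.right.right.left n3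
theorem n2 : Inf par b2_0 :=
  Inf.empty (by decide +kernel)
theorem n2_0 : Inf par a2_0 :=
  Inf.steps hw _ b2_0 s2_0 c2_0 pt0.right.right.left n2
theorem n1 : Inf par b1_0 :=
  Inf.spX 675 (Inf.cast n2_0 (by decide +kernel)) (Inf.cast n3_0 (by decide +kernel))
theorem n1_0 : Inf par a1_0 :=
  Inf.steps hw _ b1_0 s1_0 c1_0 pt0.right.left n1
theorem n0 : Inf par b0_0 :=
  Inf.spX 1351 (Inf.cast n1_0 (by decide +kernel)) (Inf.cast n4_0 (by decide +kernel))
theorem n0_0 : Inf par a0_0 :=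
  Inf.steps hw _ b0_0 s0_0 c0_0 pt0.left n0

theorem main : Inf par (box0 par 0 2703) :=
  Inf.cast n0_0 (by decide +kernel)

end Crest.Agent.R163.b4L
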