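import Crest.Agent.R163.Q3.D.b4L.S0

set_option autoImplicit false
set_option maxRecDepth 100000
set_option linter.all false
set_option Elab.async false

namespace Crest.Agent.R163.b4L

theorem c0_0 : stepsOK par ⟨345,11,6,1,7⟩ b0_0 s0_0 a0_0 = true := by decide +kernel
theorem c1_0 : stepsOK par ⟨348,11,6,1,7⟩ b1_0 s1_0 a1_0 = true := by decide +kernel
theorem c2_0 : stepsOK par ⟨352,11,6,1,7⟩ b2_0 s2_0 a2_0 = true := by decide +kernel
theorem c3_0 : stepsOK par ⟨354,11,6,1,7⟩ b3_0 s3_0 a3_0 = true := by decide +kernel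
theorem c4_0 : stepsOK par ⟨351,11,6,1,7⟩ b4_0 s4_0 a4_0 = true := by decide +kernel
theorem c5_0 : stepsOK par ⟨355,11,6,1,7⟩ b5_0 s5_0 a5_0 = true := by decide +kernel
theorem c6_0 : stepsOK par ⟨355,11,6,1,7⟩ b6_0 s6_0 a6_0 = true := by decide +kernel

end Crest.Agent.R163.b4L
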